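import Vale.Agent.P240.T.Final
import Vale.Agent.P240.Main
import Vale.Agent.P240.Stmt

/-! P240 Q/App: the systems of block T give top dimensional cycles. -/

namespace Vale.Agent.P240

open Matrix SemidirectProduct

/-- A system in `H` whose length is the 2-rank of `H`. -/
def PQ {G : Type} [Group G] (H : Subgroup G) : Prop :=
  ∃ (m : ℕ) (Γ : Type) (_ : Fintype Γ) (τ : Γ → Fin (m + 1) → G) (c : Γ → ℚ) (γ₀ : Γ), Sys τ c γ₀ ∧
    (∀ γ j, τ γ j ∈ H) ∧ ∀ E : Subgroup G, E ≤ H → (∀ x ∈ E, ∀ y ∈ E, x * y = y * x) →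
      (∀ x ∈ E, x ^ 2 = 1) → Nat.card E ≤ 2 ^ (m + 1)

theorem PQ.qd {G M : Type} [Group G] [Finite G] [Group M] {H : Subgroup M} (e : G ≃* H)
    (h : PQ H) : ∃ r, QD 2 G r := by
  obtain ⟨m, Γ, _, τ, c, γ₀, hS, hH, hr⟩ := h
  let f : G →* M := H.subtype.comp e.toMonoidHom
  have hf : Function.Injective f := Subtype.val_injective.comp e.injective
  have h1 : Sys (fun γ j => e.symm ⟨τ γ j, hH γ j⟩) c γ₀ := by
    refine Sys.of_map f hf ?_
    have e1 : (fun γ j => f (e.symm ⟨τ γ j, hH γ j⟩)) = τ := by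
      funext γ j
      exact congrArg Subtype.val (e.apply_symm_apply _)
    rw [e1]
    exact hS
  refine ⟨m + 1, h1.qd (Fintype.card_fin _) fun E hE => ?_⟩
  rw [← Subgroup.card_map_of_injective hf]
  refine hr _ ?_ ?_ ?_
  · rintro _ ⟨x, -, rfl⟩
    exact (e x).2
  · rintro _ ⟨x, hx, rfl⟩ _ ⟨y, hy, rfl⟩
    rw [← map_mul, ← map_mul, hE.2.1 x hx y hy]
  · rintro _ ⟨x, hx, rfl⟩
    rw [← map_pow, hE.2.2 x hx, map_one]

theorem pq_tw {s m : ℕ} (hm : Odd m) {K : Type} [Field K] [Finite K] (h2 : (2 : K) ≠ 0)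
    {β : Fin s → RingAut K × ℤˣ} (hβ : Ind β) {Γ : Subgroup (GL (Fin (m + 1 + 1)) K)}
    {W : Subgroup Kˣ} (hΓ : DetHyp β Γ W) {E : Fin s ⊕ Fin (m + 1) → K}
    {S : Fin s ⊕ Fin (m + 1) → Finset (K × K)} (hrot : RotHyp β Γ E S) (hE : ∀ j, E j ≠ 0)
    {r a₀ : ℕ} (hs : ∀ j, Nat.card K ^ 2 ≤ r * (S j).card) (h0 : 0 < a₀)
    (hr : 2 * ((s + 1) * r + (1 + Nat.card W) * a₀ * a₀) ≤ a₀ * (Nat.card K + 1))
    {L : Subgroup (ProjGenLinGroup (Fin (m + 1 + 1)) K)} (h1 : ∀ g ∈ Γ, ∀ k, tg (m + 1) K g k ∈ L)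
    (h3 : ∀ g ∈ Γ, ∀ i, ProjGenLinGroup.mk (g * (al (β i).1 (β i).2 g)⁻¹) ∈ L) :
    PQ (G := MM (m + 1 + 1) K)
      (L.map inl ⊔ (Subgroup.closure (Set.range β)).map inr) := by
  classical
  have := fin_MM (m + 1 + 1) K
  have := Fintype.ofFinite K
  have := Fintype.ofFinite Γ
  have : Finite (RingAut K × ℤˣ) :=
    Finite.of_injective _ (inr_injective (φ := act (m + 1 + 1) K))
  have : Finite (ProjGenLinGroup (Fin (m + 1 + 1)) K) :=
    Finite.of_surjective _ ProjGenLinGroup.mk_surjective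
  let J : Fin (m + 1) → Fin (s + 1) → Fin s ⊕ Fin (m + 1) := fun k =>
    Fin.cases (Sum.inr k) fun i => if k = 0 then Sum.inl i else Sum.inr k
  rw [Nat.card_eq_fintype_card (α := K)] at hs hr
  obtain ⟨X₀, ψ, z, hc, hψ⟩ := psi_W h2 W (fun k i => E (J k i)) (fun k i => S (J k i))
    (fun _ _ => hE _) (fun _ _ => (hrot _).1) (fun _ _ => hs _) h0 hr
  have hv : ∀ j, VanE ψ (pos j) (E j) (S j) := by
    rintro (i | k)
    · exact hψ 0 i.succ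
    · exact hψ k 0
  have hS : Sys (fun g : Γ => tw m β g) (fun g => w1 ψ z g) 1 :=
    ⟨fun g => tw_sq hβ g.1, fun g => tw_comm hβ g.1, fun g => tw_indep h2 hβ g.1,
      tw_face hrot hv z, by simpa [w1] using hc.ne, fun g hw he => (tw_det h2 hβ hΓ hc g.2 hw he).1,
      fun g hw he => (tw_det h2 hβ hΓ hc g.2 hw he).2⟩
  let e := Fintype.orderIsoFinOfCardEq (Lex (Fin s ⊕ Fin (m + 1))) (k := s + (m + 1)) (by simp)
  have hS' := hS.reindex e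
  have hH : ∀ g ∈ Γ, Subgroup.closure (Set.range (tw m β g)) ≤
      L.map inl ⊔ (Subgroup.closure (Set.range β)).map inr := fun g hg => by
    rw [tw_range, Subgroup.closure_le]
    rintro _ (⟨i, rfl⟩ | ⟨k, -, rfl⟩)
    · simp only [inl_TPC]
      exact Subgroup.mul_mem_sup (Subgroup.mem_map_of_mem _ (h3 g hg i))
        (Subgroup.mem_map_of_mem _ (Subgroup.subset_closure ⟨i, rfl⟩))
    · exact Subgroup.mem_sup_left (Subgroup.mem_map_of_mem _ (h1 g hg k))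
  refine ⟨s + m, Γ, inferInstance, _, _, 1, hS',
    fun g j => hH g g.2 (Subgroup.subset_closure ⟨_, rfl⟩), fun A hA h4 h5 => ?_⟩
  · obtain ⟨d, hd⟩ := hm
    refine (card_TPC A (B := Subgroup.closure (Set.range β)) (hA.trans (sup_le ?_ ?_))).trans ?_
    · rintro _ ⟨y, -, rfl⟩
      exact (Subgroup.closure (Set.range β)).one_mem
    · rintro _ ⟨y, hy, rfl⟩
      exact hy
    · rw [card_closure hβ.sq hβ.comm hβ.indep, add_assoc s m 1, pow_add]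
      exact Nat.mul_le_mul_left _ (pgl_rank h2 (Nat.succ_pos _) (by omega) (by omega) _
        (fun x hx y hy => inl_injective (φ := act _ K)
          (by rw [map_mul, map_mul]; exact h4 _ hx _ hy))
        fun x hx => inl_injective (φ := act _ K) (by rw [map_pow, map_one]; exact h5 _ hx))

variable {n : ℕ} {K : Type} [Field K] [Finite K]

theorem pq_og0 (h2 : (2 : K) ≠ 0) (hq : 49 ≤ Nat.card K) (hn : Odd n) (h3 : 3 ≤ n)
    {L : Subgroup (ProjGenLinGroup (Fin n) K)} (hL : PH n K ≤ L) :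
    PQ (G := MM n K)
      (L.map inl ⊔ (Subgroup.closure (Set.range (![] : Fin 0 → RingAut K × ℤˣ))).map inr) := by
  classical
  have := Fintype.ofFinite K
  obtain ⟨m, rfl⟩ : ∃ m, n = m + 1 + 1 := ⟨n - 2, by omega⟩
  have hm : Odd m := (Nat.odd_add.1 (show Odd (m + 2) from hn)).2 even_two
  refine pq_tw hm h2 ⟨fun i => i.elim0, fun i => i.elim0, fun i => i.elim0⟩ (Γ := OG _ K) (W := ⊥)
    (Or.inl le_rfl) (E := fun _ => 1)
    (S := fun _ => Finset.univ.filter fun p : K × K => p.1 ^ 2 + 1 * p.2 ^ 2 = 1)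
    (fun j => ⟨circle_rot 1, fun p hp B hB =>
      ⟨rot_og (Finset.mem_filter.1 hp).2 hB, fun i => i.elim0⟩⟩) (fun _ => one_ne_zero)
    (r := Nat.card K + 2) (a₀ := 5) (fun _ => ?_) (by norm_num) ?_
    (fun g hg k => hL (tau_mem (⟨g, hg⟩ : OG _ K) k)) fun g hg i => i.elim0
  · have h4 := circle_card h2 (one_ne_zero (α := K))
    rw [← Nat.card_eq_fintype_card] at h4
    nlinarith
  · rw [Subgroup.card_bot]
    omega

theorem pq_og1 (h2 : (2 : K) ≠ 0) (hq : 100 ^ 2 ≤ Nat.card K) (hn : Odd n) (h3 : 3 ≤ n)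
    {L : Subgroup (ProjGenLinGroup (Fin n) K)} (hL : PH n K ≤ L) {q : RingAut K × ℤˣ}
    (hβ : Ind ![q]) (h1 : q.1 ≠ 1) :
    PQ (G := MM n K) (L.map inl ⊔ (Subgroup.closure (Set.range ![q])).map inr) := by
  classical
  have := Fintype.ofFinite K
  obtain ⟨m, rfl⟩ : ∃ m, n = m + 1 + 1 := ⟨n - 2, by omega⟩
  have hm : Odd m := (Nat.odd_add.1 (show Odd (m + 2) from hn)).2 even_two
  obtain ⟨q₀, c1, -, -, c2⟩ := sub_circle h2 (σ := q.1) (congrArg Prod.fst (hβ.sq 0)) h1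
  rw [← Nat.card_eq_fintype_card] at c1
  have h4 : 100 ≤ q₀ := by
    rw [c1] at hq
    exact (Nat.pow_le_pow_iff_left two_ne_zero).1 hq
  have h5 : ∀ η : K, η = 1 ∨ η = -1 →
      Nat.card K ^ 2 ≤ (q₀ ^ 3 + 2 * q₀ ^ 2) * (SC q.1 1 η).card := fun η hη => by
    have h6 := (c2 1 η (Or.inl rfl) hη).2
    obtain ⟨k, rfl⟩ : ∃ k, q₀ = k + 1 := ⟨q₀ - 1, by omega⟩
    refine le_trans ?_ (Nat.mul_le_mul_left _ (show k ≤ _ by omega))
    rw [c1]
    nlinarith [Nat.mul_le_mul_left ((k + 1) ^ 2) (show 1 ≤ k by omega)]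
  refine pq_tw hm h2 hβ (Γ := OG _ K) (W := ⊥) (Or.inl le_rfl) (E := fun _ => 1)
    (S := Sum.elim (fun _ => SC q.1 1 (-1)) fun _ => SC q.1 1 1) (fun j => ?_)
    (fun _ => one_ne_zero) (r := q₀ ^ 3 + 2 * q₀ ^ 2) (a₀ := 8 * q₀) (fun j => ?_) (by omega) ?_
    (fun g hg k => hL (tau_mem (⟨g, hg⟩ : OG _ K) k)) fun g hg i => ?_
  · rcases j with j | j
    · refine ⟨(c2 1 (-1) (Or.inl rfl) (Or.inr rfl)).1, fun p hp B hB => ?_⟩
      obtain ⟨p1, p2, p3⟩ := (Finset.mem_filter.1 hp).2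
      refine ⟨rot_og p3 hB, fun i => ?_⟩
      rw [if_pos (congrArg Sum.inl (Subsingleton.elim j i)), Subsingleton.elim i 0,
        (al_og _ _ (rot_og p3 hB)).1]
      refine Units.ext ((al_rot q.1 (map_one _) hB).trans ?_)
      rw [p1, p2, neg_one_mul]
      exact (rho_rot hB).symm
    · refine ⟨(c2 1 1 (Or.inl rfl) (Or.inl rfl)).1, fun p hp B hB => ?_⟩
      obtain ⟨p1, p2, p3⟩ := (Finset.mem_filter.1 hp).2
      refine ⟨rot_og p3 hB, fun i => ?_⟩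
      rw [if_neg Sum.inr_ne_inl, Subsingleton.elim i 0, (al_og _ _ (rot_og p3 hB)).1]
      refine Units.ext ((al_rot q.1 (map_one _) hB).trans ?_)
      rw [p1, p2, one_mul]
      exact hB.symm
  · rcases j with j | j
    · exact h5 _ (Or.inr rfl)
    · exact h5 _ (Or.inl rfl)
  · rw [Subgroup.card_bot, c1]
    nlinarith [Nat.mul_le_mul_left (q₀ ^ 2) h4]
  · exact hL (tw_TAppO h2 hn h3 _ hg)

theorem pq_sl1 (h2 : (2 : K) ≠ 0) (hq : 100 * Nat.gcd (2 * n) (Nat.card K - 1) ≤ Nat.card K)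
    (hn : Odd n) (h3 : 3 ≤ n) (hβ : Ind ![((1 : RingAut K), (-1 : ℤˣ))]) :
    PQ (G := MM n K) ((Pr (SG n K)).map inl ⊔
      (Subgroup.closure (Set.range ![((1 : RingAut K), (-1 : ℤˣ))])).map inr) := by
  classical
  have := Fintype.ofFinite K
  obtain ⟨m, rfl⟩ : ∃ m, n = m + 1 + 1 := ⟨n - 2, by omega⟩
  have hm : Odd m := by
    obtain ⟨k, hk⟩ := hn
    exact ⟨k - 1, by omega⟩
  have hg : 0 < Nat.gcd (2 * (m + 1 + 1)) (Nat.card K - 1) := Nat.gcd_pos_of_pos_left _ (by omega)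
  have : NeZero (Nat.gcd (2 * (m + 1 + 1)) (Nat.card K - 1)) := ⟨hg.ne'⟩
  have hw := card_rootsOfUnity K (Nat.gcd (2 * (m + 1 + 1)) (Nat.card K - 1))
  have hE : ∀ j : Fin 1 ⊕ Fin (m + 1), Sum.elim (fun _ => (-1 : K)) (fun _ => 1) j ≠ 0 := by
    rintro (j | j)
    · exact neg_ne_zero.2 one_ne_zero
    · exact one_ne_zero
  refine pq_tw hm h2 hβ (det_TAppS 0 rfl) (rot1_TAppS m) hE (r := Nat.card K + 2) (a₀ := 8)
    (fun j => n1_TAppS (by omega) ?_) (by norm_num) (by omega) (fun g _ k => tg_TAppS hn g k)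
    fun g hg i => al_TAppS _ _ hg
  rw [Nat.card_eq_fintype_card]
  exact circle_card h2 (hE j)

theorem pq_sl2 (h2 : (2 : K) ≠ 0)
    (hq : (100 * Nat.gcd (2 * n) (Nat.card K - 1)) ^ 2 ≤ Nat.card K) (hn : Odd n) (h3 : 3 ≤ n)
    {σ : RingAut K} (hσ : σ * σ = 1) (h1 : σ ≠ 1) (hβ : Ind ![(σ, (1 : ℤˣ)), (1, -1)]) :
    PQ (G := MM n K) ((Pr (SG n K)).map inl ⊔
      (Subgroup.closure (Set.range ![(σ, (1 : ℤˣ)), (1, -1)])).map inr) := by
  classical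
  have := Fintype.ofFinite K
  obtain ⟨m, rfl⟩ : ∃ m, n = m + 1 + 1 := ⟨n - 2, by omega⟩
  have hm : Odd m := by
    obtain ⟨k, hk⟩ := hn
    exact ⟨k - 1, by omega⟩
  have hg : 0 < Nat.gcd (2 * (m + 1 + 1)) (Nat.card K - 1) := Nat.gcd_pos_of_pos_left _ (by omega)
  have : NeZero (Nat.gcd (2 * (m + 1 + 1)) (Nat.card K - 1)) := ⟨hg.ne'⟩
  have hw := card_rootsOfUnity K (Nat.gcd (2 * (m + 1 + 1)) (Nat.card K - 1))
  obtain ⟨q, hK, -, -, hS⟩ := sub_circle h2 hσ h1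
  rw [← Nat.card_eq_fintype_card] at hK
  have hq' : 100 * Nat.gcd (2 * (m + 1 + 1)) (Nat.card K - 1) ≤ q :=
    (Nat.pow_le_pow_iff_left two_ne_zero).1 (hq.trans hK.le)
  have hE : ∀ j : Fin 2 ⊕ Fin (m + 1), Sum.elim ![(1 : K), -1] (fun _ => 1) j = 1 ∨
      Sum.elim ![(1 : K), -1] (fun _ => 1) j = -1 := by
    rintro (j | j)
    · revert j
      exact Fin.forall_fin_two.2 ⟨Or.inl rfl, Or.inr rfl⟩
    · exact Or.inl rfl
  have hH : ∀ j : Fin 2 ⊕ Fin (m + 1), Sum.elim ![(-1 : K), 1] (fun _ => 1) j = 1 ∨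
      Sum.elim ![(-1 : K), 1] (fun _ => 1) j = -1 := by
    rintro (j | j)
    · revert j
      exact Fin.forall_fin_two.2 ⟨Or.inr rfl, Or.inl rfl⟩
    · exact Or.inl rfl
  refine pq_tw hm h2 hβ (det_TAppS 1 rfl) (rot2_TAppS m fun e η he hη => (hS e η he hη).1)
    (fun j => ?_) (r := q ^ 2 * (q + 2)) (a₀ := 12 * q) (fun j => ?_) (by omega) ?_
    (fun g _ k => tg_TAppS hn g k) fun g hg i => al_TAppS _ _ hg
  · rcases hE j with h | h <;> rw [h]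
    · exact one_ne_zero
    · exact neg_ne_zero.2 one_ne_zero
  · rw [hK, sq (q ^ 2), mul_assoc]
    exact Nat.mul_le_mul_left _ (n1_TAppS (by omega) (hS _ _ (hE j) (hH j)).2)
  · have h4 := n2_TAppS hg hw hq'
    rwa [← hK] at h4 ⊢

theorem pq_u0 (h2 : (2 : K) ≠ 0) {q : ℕ} (hK : Nat.card K = q ^ 2) (hq : 100 ≤ q) (hn : Odd n)
    (h3 : 3 ≤ n) {σ : RingAut K} (hσ : σ * σ = 1) (h1 : σ ≠ 1) :
    PQ (G := MM n K) ((Pr (GU n σ ⊓ SG n K)).map inl ⊔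
      (Subgroup.closure (Set.range (![] : Fin 0 → RingAut K × ℤˣ))).map inr) := by
  classical
  obtain ⟨m, rfl⟩ : ∃ m, n = m + 1 + 1 := ⟨n - 2, by omega⟩
  letI := Fintype.ofFinite K
  obtain ⟨q₀, hc, -, -, hS⟩ := sub_circle h2 hσ h1
  obtain rfl : q₀ = q :=
    Nat.pow_left_injective two_ne_zero (hc.symm.trans (Nat.card_eq_fintype_card.symm.trans hK))
  refine pq_tw (s := 0) (W := ⊥) (Γ := OG (m + 1 + 1) K ⊓ GU (m + 1 + 1) σ) (E := fun _ => 1)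
    (S := fun _ => SC σ 1 1) (r := q₀ ^ 3 + 2 * q₀ ^ 2) (a₀ := 12 * q₀)
    (by rcases hn with ⟨t, ht⟩; exact ⟨t - 1, by omega⟩) h2
    ⟨fun i => i.elim0, fun i => i.elim0, fun i => i.elim0⟩ (Or.inl inf_le_left)
    (fun j => ⟨(hS 1 1 (Or.inl rfl) (Or.inl rfl)).1, fun p hp B hB =>
      ⟨⟨(real_TAppU hp hB).1, (real_TAppU hp hB).2.1⟩, fun i => i.elim0⟩⟩)
    (fun _ => one_ne_zero)
    (fun _ => by rw [hK]; exact num_TAppU (by omega) (hS 1 1 (Or.inl rfl) (Or.inl rfl)).2)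
    (by omega) ?_ (fun g hg k => tg_TAppU hn hg.2 k) fun _ _ i => i.elim0
  rw [hK, Subgroup.card_bot]
  exact num2_TAppU (g := 1) (by omega) (by omega) le_rfl le_rfl

theorem pq_u1 (h2 : (2 : K) ≠ 0) {q : ℕ} (hK : Nat.card K = q ^ 2)
    (hq : 100 * Nat.gcd (2 * n) (q + 1) ≤ q) (hn : Odd n) (h3 : 3 ≤ n) {σ : RingAut K}
    (hσ : σ * σ = 1) (h1 : σ ≠ 1) (hβ : Ind ![(σ, (1 : ℤˣ))]) :
    PQ (G := MM n K) ((Pr (GU n σ ⊓ SG n K)).map inl ⊔
      (Subgroup.closure (Set.range ![(σ, (1 : ℤˣ))])).map inr) := by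
  classical
  obtain ⟨m, rfl⟩ : ∃ m, n = m + 1 + 1 := ⟨n - 2, by omega⟩
  letI := Fintype.ofFinite K
  obtain ⟨q₀, hc, hpow, -, hS⟩ := sub_circle h2 hσ h1
  obtain rfl : q₀ = q :=
    Nat.pow_left_injective two_ne_zero (hc.symm.trans (Nat.card_eq_fintype_card.symm.trans hK))
  have hg0 : 0 < Nat.gcd (2 * (m + 1 + 1)) (q₀ + 1) := Nat.gcd_pos_of_pos_right _ q₀.succ_pos
  haveI : NeZero (Nat.gcd (2 * (m + 1 + 1)) (q₀ + 1)) := ⟨hg0.ne'⟩
  refine pq_tw (s := 1) (W := rootsOfUnity (Nat.gcd (2 * (m + 1 + 1)) (q₀ + 1)) K)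
    (Γ := GU (m + 1 + 1) σ ⊓ SG (m + 1 + 1) K) (E := Sum.elim (fun _ => -1) fun _ => 1)
    (S := Sum.elim (fun _ => SC σ (-1) (-1)) fun _ => SC σ 1 1)
    (r := q₀ ^ 3 + 2 * q₀ ^ 2) (a₀ := 12 * q₀)
    (by rcases hn with ⟨t, ht⟩; exact ⟨t - 1, by omega⟩) h2 hβ
    (Or.inr ⟨0, fun g hg => ⟨gT_TAppU hg.1, MonoidHom.mem_ker.1 hg.2, fun a b u ha hu hu2 => ?_⟩⟩)
    ?_ ?_ ?_ (by omega) ?_ (fun g hg k => tg_TAppU hn hg.1 k) fun g hg i => ?_
  · have h4 := col_TAppU hg.1 ha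
    rw [hu, hpow, ← pow_succ] at h4
    have h5 : u ^ (q₀ + 1) = 1 := Units.ext (by rw [Units.val_pow_eq_pow_val, h4, Units.val_one])
    refine (mem_rootsOfUnity _ _).2 (pow_gcd_eq_one.2 ⟨hu2, ?_⟩)
    rw [← pow_mul, mul_comm, pow_mul, h5, one_pow]
  · rintro (j | j)
    · refine ⟨(hS (-1) (-1) (Or.inr rfl) (Or.inr rfl)).1, fun p hp B hB => ?_⟩
      obtain ⟨h4, h5, h6⟩ := imag_TAppU (k := 0) hp hB
      refine ⟨⟨h4, h5⟩, fun i => ?_⟩
      obtain rfl : i = 0 := Subsingleton.elim _ _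
      obtain rfl : j = 0 := Subsingleton.elim _ _
      rw [if_pos rfl]
      exact h6
    · refine ⟨(hS 1 1 (Or.inl rfl) (Or.inl rfl)).1, fun p hp B hB => ?_⟩
      obtain ⟨-, h4, h5, h6⟩ := real_TAppU (k := j) hp hB
      refine ⟨⟨h4, h5⟩, fun i => ?_⟩
      obtain rfl : i = 0 := Subsingleton.elim _ _
      rw [if_neg Sum.inr_ne_inl]
      exact h6
  · rintro (j | j)
    · exact neg_ne_zero.2 one_ne_zero
    · exact one_ne_zero
  · rw [hK]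
    rintro (j | j)
    · exact num_TAppU (by omega) (hS (-1) (-1) (Or.inr rfl) (Or.inr rfl)).2
    · exact num_TAppU (by omega) (hS 1 1 (Or.inl rfl) (Or.inl rfl)).2
  · rw [hK]
    exact num2_TAppU le_rfl hq hg0 (card_rootsOfUnity K _)
  · obtain rfl : i = 0 := Subsingleton.elim _ _
    have h4 : al σ (-1) (al σ 1 g) = al σ 1 g := by
      rw [← al_comp, mul_comm (-1 : ℤˣ), al_comp]
      exact congrArg (al σ 1) hg.1
    have h5 : GeneralLinearGroup.det (al σ 1 g) = 1 := Units.ext (by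
      rw [al_det, MonoidHom.mem_ker.1 hg.2, Units.val_one, map_one, _root_.one_zpow])
    exact Subgroup.mem_map_of_mem _ (Subgroup.mul_mem _ hg
      (Subgroup.inv_mem _ ⟨h4, MonoidHom.mem_ker.2 h5⟩))

section

variable {P Q : Type} [Group P] [Group Q] {φ : Q →* MulAut P}

theorem conj_std2 {L N : Subgroup P} (hLN : L ≤ N) (hc : ∀ y ∈ N, ∀ y' ∈ N, y * y' * y⁻¹ * y'⁻¹ ∈ L) {n : ℕ}
    (hn : Odd n) (hexp : ∀ y ∈ N, y ^ n ∈ L) (A : Subgroup (P ⋊[φ] Q)) [Finite A]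
    (h2 : IsPGroup 2 A)
    (hA : ∀ x ∈ A, x.left ∈ N ∧ (∀ y ∈ N, φ x.right y ∈ N) ∧ ∀ y ∈ L, φ x.right y ∈ L) :
    ∃ g ∈ N, ∀ x ∈ A, (inl g * x * (inl g)⁻¹).left ∈ L := by
  haveI hnorm : (L.subgroupOf N).Normal := ⟨fun l hl y => by
    rw [Subgroup.mem_subgroupOf] at hl ⊢
    have h1 := L.mul_mem (hc y y.2 l l.2) hl
    simpa using h1⟩
  letI : CommGroup (N ⧸ L.subgroupOf N) :=
    { (inferInstance : Group (N ⧸ L.subgroupOf N)) with
      mul_comm := fun a b => by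
        obtain ⟨a, rfl⟩ := QuotientGroup.mk_surjective a
        obtain ⟨b, rfl⟩ := QuotientGroup.mk_surjective b
        rw [← QuotientGroup.mk_mul, ← QuotientGroup.mk_mul, QuotientGroup.eq,
          Subgroup.mem_subgroupOf]
        have h1 := hc _ (N.inv_mem b.2) _ (N.inv_mem a.2)
        simpa [mul_assoc] using h1 }
  obtain ⟨ρ, hρ⟩ : ∃ ρ : A → N →* N, ∀ x y, (ρ x y : P) = φ (x : P ⋊[φ] Q).right y :=
    ⟨fun x => ((φ (x : P ⋊[φ] Q).right).toMonoidHom.comp N.subtype).codRestrict N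
      (fun y => (hA x x.2).2.1 y y.2), fun x y => rfl⟩
  have hρL : ∀ x, L.subgroupOf N ≤ (L.subgroupOf N).comap (ρ x) := fun x y hy => by
    rw [Subgroup.mem_comap, Subgroup.mem_subgroupOf, hρ]
    exact (hA x x.2).2.2 y hy
  have hco : Nat.Coprime (Nat.card A) n := by
    haveI : Fact (Nat.Prime 2) := ⟨Nat.prime_two⟩
    obtain ⟨k, hk⟩ := IsPGroup.iff_card.1 h2
    rw [hk]
    exact Nat.Coprime.pow_left k (Nat.coprime_two_left.2 hn)
  obtain ⟨d, hd⟩ := cocycle_TConj (A := A) (D := N ⧸ L.subgroupOf N)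
    (fun x => QuotientGroup.map _ _ (ρ x) (hρL x))
    (fun x => QuotientGroup.mk ⟨(x : P ⋊[φ] Q).left, (hA x x.2).1⟩)
    (fun x y => by
      rw [QuotientGroup.map_mk, ← QuotientGroup.mk_mul]
      refine congrArg _ (Subtype.ext ?_)
      rw [N.coe_mul, hρ]
      rfl)
    (n := n)
    (fun d => by
      obtain ⟨d, rfl⟩ := QuotientGroup.mk_surjective d
      rw [← QuotientGroup.mk_pow, QuotientGroup.eq_one_iff, Subgroup.mem_subgroupOf]
      exact hexp d d.2)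
    hco
  obtain ⟨g, rfl⟩ := QuotientGroup.mk_surjective d
  refine ⟨g, g.2, fun x hx => ?_⟩
  have h1 := hd ⟨x, hx⟩
  rw [← QuotientGroup.mk_inv, QuotientGroup.map_mk, ← QuotientGroup.mk_mul, ← QuotientGroup.mk_mul,
    QuotientGroup.eq_one_iff, Subgroup.mem_subgroupOf, Subgroup.coe_mul, Subgroup.coe_mul, hρ] at h1
  rw [left_conj_TConj]
  exact h1

theorem equiv_conj {L : Subgroup P} {g : P} (hg : g ∈ Subgroup.normalizer (L : Set P))
    {A : Subgroup (P ⋊[φ] Q)} (hA : ∀ x ∈ A, (inl g * x * (inl g)⁻¹).left ∈ L) :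
    Nonempty ((L.map inl ⊔ A : Subgroup (P ⋊[φ] Q)) ≃*
      (L.map inl ⊔ (A.map rightHom).map inr : Subgroup (P ⋊[φ] Q))) := by
  have hLc : ∀ y : P ⋊[φ] Q, y ∈ L.map inl ↔ MulAut.conj (inl g : P ⋊[φ] Q) y ∈ L.map inl := by
    intro y
    rw [MulAut.conj_apply]
    constructor
    · rintro ⟨l, hl, rfl⟩
      exact ⟨g * l * g⁻¹, (Subgroup.mem_normalizer_iff.1 hg l).1 hl, by simp⟩
    · rintro ⟨l, hl, hy⟩
      refine ⟨g⁻¹ * l * g, (Subgroup.mem_normalizer_iff.1 hg _).2 (by simpa [mul_assoc] using hl), ?_⟩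
      rw [map_mul, map_mul, hy, map_inv]
      group
  have hmap : (L.map inl ⊔ A).map (MulAut.conj (inl g : P ⋊[φ] Q)).toMonoidHom
      = L.map inl ⊔ (A.map rightHom).map inr := by
    apply le_antisymm
    · rw [Subgroup.map_le_iff_le_comap]
      refine sup_le (fun y hy => ?_) (fun x hx => ?_)
      · exact Subgroup.mem_sup_left ((hLc y).1 hy)
      · rw [Subgroup.mem_comap]
        change inl g * x * (inl g)⁻¹ ∈ _
        rw [← inl_left_mul_inr_right (inl g * x * (inl g)⁻¹), right_conj_TConj]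
        exact Subgroup.mul_mem _ (Subgroup.mem_sup_left ⟨_, hA x hx, rfl⟩)
          (Subgroup.mem_sup_right ⟨_, ⟨x, hx, rfl⟩, rfl⟩)
    · have hL : L.map inl ≤ (L.map inl ⊔ A).map (MulAut.conj (inl g : P ⋊[φ] Q)).toMonoidHom := by
        intro y hy
        refine ⟨(MulAut.conj (inl g : P ⋊[φ] Q)).symm y, Subgroup.mem_sup_left ((hLc _).2 ?_), ?_⟩
        · rw [MulEquiv.apply_symm_apply]
          exact hy
        · exact MulEquiv.apply_symm_apply _ y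
      refine sup_le hL ?_
      rintro _ ⟨_, ⟨x, hx, rfl⟩, rfl⟩
      have h1 : inl g * x * (inl g)⁻¹
          ∈ (L.map inl ⊔ A).map (MulAut.conj (inl g : P ⋊[φ] Q)).toMonoidHom :=
        ⟨x, Subgroup.mem_sup_right hx, rfl⟩
      have h2 := Subgroup.mul_mem _ (Subgroup.inv_mem _ (hL ⟨_, hA x hx, rfl⟩)) h1
      have h3 := inl_left_mul_inr_right (inl g * x * (inl g)⁻¹)
      rw [right_conj_TConj] at h3
      rw [← h3] at h2
      have h4 : (inl (inl g * x * (inl g)⁻¹).left * inr x.right : P ⋊[φ] Q).left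
          = (inl g * x * (inl g)⁻¹).left := by rw [h3]
      rw [h4, inv_mul_cancel_left] at h2
      exact h2
  exact ⟨((MulAut.conj (inl g : P ⋊[φ] Q)).subgroupMap (L.map inl ⊔ A)).trans
    (MulEquiv.subgroupCongr hmap)⟩

end

theorem right_QApp {A : Subgroup (MM n K)} (hA : ∀ x ∈ A, x.right ∈ QQ K ⊤) :
    ∀ q ∈ A.map rightHom, q * q = 1 := by
  rintro _ ⟨x, hx, rfl⟩
  exact Prod.ext (hA x hx).1 (Int.units_mul_self _)

theorem pq_A (h2 : (2 : K) ≠ 0) (hn : Odd n) (h3 : 3 ≤ n)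
    (hq : 100 * Nat.gcd (2 * n) (Nat.card K - 1) ≤ Nat.card K)
    (hq' : IsSquare (Nat.card K) → (100 * Nat.gcd (2 * n) (Nat.card K - 1)) ^ 2 ≤ Nat.card K)
    (A : Subgroup (MM n K)) (hA' : ∀ x ∈ A, x.right ∈ QQ K ⊤) (hsq : IsPGroup 2 A) :
    ∃ H : Subgroup (MM n K), Nonempty (((Pr (SG n K)).map inl ⊔ A : Subgroup (MM n K)) ≃* H) ∧ PQ H := by
  have := fin_MM n K
  have hg : 0 < Nat.gcd (2 * n) (Nat.card K - 1) := Nat.gcd_pos_of_pos_left _ (by omega)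
  have hc : ∀ y ∈ (⊤ : Subgroup (ProjGenLinGroup (Fin n) K)), ∀ y' ∈ (⊤ : Subgroup _),
      y * y' * y⁻¹ * y'⁻¹ ∈ Pr (SG n K) := by
    intro y _ y' _
    obtain ⟨g, rfl⟩ := ProjGenLinGroup.mk_surjective y
    obtain ⟨g', rfl⟩ := ProjGenLinGroup.mk_surjective y'
    exact ⟨_, comm_TFin g g', by simp only [map_mul, map_inv]⟩
  obtain ⟨g, -, hgA⟩ := conj_std2 (φ := act n K) le_top hc hn (fun y _ => by
    obtain ⟨g, rfl⟩ := ProjGenLinGroup.mk_surjective y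
    exact ⟨_, (pow_TFin g).1, (pow_TFin g).2⟩) A hsq fun x _ => ⟨trivial, fun _ _ => trivial, by
      rintro _ ⟨y, hy, rfl⟩
      rw [act_mk]
      exact Subgroup.mem_map_of_mem _ (alsg_TFin _ _ hy)⟩
  refine ⟨_, equiv_conj (norm_TFin le_top hc trivial) hgA, ?_⟩
  have hPH : PH n K ≤ Pr (SG n K) := fun y hy => by
    obtain ⟨g, hg, rfl⟩ := PH_le hy
    exact mem_TAppS hn (det_TConjB hg)
  rcases basis_Q _ (right_QApp hA') with h | ⟨q, hβ, h⟩ | ⟨σ, hσ, h1, hβ, h⟩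
  · rw [h]
    exact pq_og0 h2 (by omega) hn h3 hPH
  · rw [h]
    by_cases h1 : q.1 = 1
    · have h4 : q = (1, -1) := by
        refine Prod.ext h1 ((Int.units_eq_one_or q.2).resolve_left fun h5 => ?_)
        exact ind_TFin hβ (Prod.ext h1 h5)
      subst h4
      exact pq_sl1 h2 hq hn h3 hβ
    · refine pq_og1 h2 (le_trans (Nat.pow_le_pow_left (by omega) 2)
        (hq' (sq_TFin (congrArg Prod.fst (hβ.sq 0)) h1))) hn h3 hPH hβ h1
  · rw [h]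
    exact pq_sl2 h2 (hq' (sq_TFin hσ h1)) hn h3 hσ h1 hβ

theorem pq_U (h2 : (2 : K) ≠ 0) (hn : Odd n) (h3 : 3 ≤ n) {q : ℕ} (hK : Nat.card K = q ^ 2)
    (hq : 100 * Nat.gcd (2 * n) (q + 1) ≤ q) {σ : RingAut K} (hσ : σ * σ = 1) (h1 : σ ≠ 1)
    (A : Subgroup (MM n K)) (hA : ∀ x ∈ A, x.left ∈ Pr (GU n σ) ∧ x.right ∈ QQ K ⊥)
    (hA' : ∀ x ∈ A, x.right ∈ QQ K ⊤) (hsq : IsPGroup 2 A) :
    ∃ H : Subgroup (MM n K), Nonempty (((Pr (GU n σ ⊓ SG n K)).map inl ⊔ A : Subgroup (MM n K)) ≃* H) ∧ PQ H := by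
  have := fin_MM n K
  have hg : 0 < Nat.gcd (2 * n) (q + 1) := Nat.gcd_pos_of_pos_left _ (by omega)
  have hLN : Pr (GU n σ ⊓ SG n K) ≤ Pr (GU n σ) := Subgroup.map_mono inf_le_left
  have hc : ∀ y ∈ Pr (GU n σ), ∀ y' ∈ Pr (GU n σ),
      y * y' * y⁻¹ * y'⁻¹ ∈ Pr (GU n σ ⊓ SG n K) := by
    rintro _ ⟨g, hg, rfl⟩ _ ⟨g', hg', rfl⟩
    exact ⟨_, ⟨(GU n σ).mul_mem ((GU n σ).mul_mem ((GU n σ).mul_mem hg hg') ((GU n σ).inv_mem hg))
      ((GU n σ).inv_mem hg'), comm_TFin g g'⟩, by simp only [map_mul, map_inv]⟩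
  obtain ⟨g, hgN, hgA⟩ := conj_std2 (φ := act n K) hLN hc hn (by
    rintro _ ⟨g, hg, rfl⟩
    refine ⟨_, ⟨mul_mem ?_ (pow_mem hg n), (pow_TFin g).1⟩, (pow_TFin g).2⟩
    have e1 : al σ (-1) g = g := hg
    have e2 := al_det σ (-1) g
    rw [e1] at e2
    have e3 : GeneralLinearGroup.scalar (Fin n) (GeneralLinearGroup.det g)⁻¹ =
        dg fun _ => (GeneralLinearGroup.det g)⁻¹ := Units.ext rfl
    rw [e3]
    show al σ (-1) _ = _
    refine Units.ext ?_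
    rw [(aldg_TCent σ _).2]
    show _ = diagonal fun _ => _
    congr 1
    funext i
    rw [Units.val_inv_eq_inv_val, map_inv₀, inv_inv]
    conv_rhs => rw [e2]
    simp) A hsq fun x hx => ⟨(hA x hx).1, by
      rintro _ ⟨y, hy, rfl⟩
      rw [act_mk]
      exact Subgroup.mem_map_of_mem _ (algu_TFin _ _ _ hy), by
      rintro _ ⟨y, hy, rfl⟩
      rw [act_mk]
      exact Subgroup.mem_map_of_mem _ ⟨algu_TFin _ _ _ hy.1, alsg_TFin _ _ hy.2⟩⟩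
  refine ⟨_, equiv_conj (norm_TFin hLN hc hgN) hgA, ?_⟩
  rcases basis_Q _ (right_QApp hA') with h | ⟨p, hβ, h⟩ | ⟨τ, -, -, -, h⟩
  · rw [h]
    exact pq_u0 h2 hK (by omega) hn h3 hσ h1
  · have h4 : p.2 = 1 := snd_TFin (fun x hx => (hA x hx).2) h 0
    have h5 : p = (σ, 1) := Prod.ext (inv_unique (congrArg Prod.fst (hβ.sq 0))
      (fun h6 => ind_TFin hβ (Prod.ext h6 h4)) hσ h1) h4
    rw [h]
    subst h5
    exact pq_u1 h2 hK hq hn h3 hσ h1 hβ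
  · exact absurd (snd_TFin (fun x hx => (hA x hx).2) h 1) (by simp)

end Vale.Agent.P240
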