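import Mathlib

/-! P240 Q/Iso: isomorphic groups. -/

namespace Vale.Agent.P240

/-- The groups `A` and `B` are isomorphic. -/
def Iso (A B : Type) [Group A] [Group B] : Prop := Nonempty (A ≃* B)

end Vale.Agent.P240
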