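import Vale.Agent.P240.Q.App
import Vale.Agent.P240.V.Main

/-! P240 Q/Main: the Quillen dimension property for elementary 2-extensions of PSL and PSU. -/

namespace Vale.Agent.P240

open Matrix SemidirectProduct

variable {n : ℕ} {K : Type} [Field K] [Finite K] {σ : RingAut K}

/-- Elements with square in `L` act as standard automorphisms. -/
def Cmp2 {G : Type} [Group G] {L : Subgroup G} {n : ℕ} {K : Type} [Field K]
    {L' : Subgroup (ProjGenLinGroup (Fin n) K)} (e : L ≃* L') (Y : Subgroup (GL (Fin n) K))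
    (E : Subgroup ℤˣ) : Prop :=
  ∀ x ∈ Subgroup.normalizer (L : Set G), x * x ∈ L →
    ∃ y ∈ Y, ∃ σ : RingAut K, Inv2 σ ∧ ∃ ε ∈ E, Via e x (Tw y σ ε)

theorem cmp2_PSL (h2 : (2 : K) ≠ 0) (hn : Odd n) (h3 : 3 ≤ n) {G : Type} [Group G]
    {L : Subgroup G} (e : L ≃* Pr (SG n K)) : Cmp2 e ⊤ ⊤ := by
  intro x hx hxx
  let c : MulAut L := L.normalizerMonoidHom ⟨x, hx⟩
  have hc : ∀ l : L, (c l : G) = x * l * x⁻¹ := fun l => rfl
  obtain ⟨φ, hφ, hv⟩ := au_equiv (e.symm.trans (c.trans e))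
  have hv' : ∀ l : L, φ (e l) = e (c l) := fun l => by
    rw [hv]
    simp
  obtain ⟨y, ⟨σ, ε⟩, h⟩ := aut_PSL h2 hn h3 hφ
  obtain ⟨Y, rfl⟩ := ProjGenLinGroup.mk_surjective y
  refine ⟨Y, trivial, σ, ?_, ε, trivial, fun l l' hl g hg => ?_⟩
  · obtain ⟨Z, hZ⟩ := ProjGenLinGroup.mk_surjective (e ⟨x * x, hxx⟩ : ProjGenLinGroup (Fin n) K)
    refine fix_sigma h3 (y := Z⁻¹ * (Y * al σ ε Y)) fun i j hij t => ?_
    obtain ⟨l, hl⟩ := e.surjective ⟨xp hij t, xp_mem hij t⟩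
    have e1 : c (c l) = ⟨x * x, hxx⟩ * l * (⟨x * x, hxx⟩ : L)⁻¹ := Subtype.ext (by
      rw [hc, hc]
      show _ = x * x * l * (x * x)⁻¹
      group)
    have e2 : φ (φ (e l)) = ProjGenLinGroup.mk Z * e l * (ProjGenLinGroup.mk Z)⁻¹ := by
      rw [hv', hv', e1, map_mul, map_mul, map_inv, hZ]
      rfl
    rw [hl] at e2
    have e3 : φ (φ (xp hij t)) = ProjGenLinGroup.mk Z * xp hij t * (ProjGenLinGroup.mk Z)⁻¹ := e2
    rw [h _ (hφ.mem _ (xp_mem hij t)), h _ (xp_mem hij t)] at e3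
    have e4 : xp hij t = (ProjGenLinGroup.mk Z)⁻¹ *
        (ProjGenLinGroup.mk Z * xp hij t * (ProjGenLinGroup.mk Z)⁻¹) * ProjGenLinGroup.mk Z := by
      group
    rw [e4, ← e3, ← Int.units_mul_self ε, al_comp, xp]
    simp only [map_mul, map_inv, act_mk]
    group
  · have e1 : l' = c l := Subtype.ext (hl.trans (hc l).symm)
    rw [e1, ← hv', h _ (e l).2, hg, act_mk, map_mul, map_mul, map_inv]

theorem cmp2_PSU (h2 : (2 : K) ≠ 0) (hq : 49 ≤ Nat.card K) (hn : Odd n) (h3 : 3 ≤ n)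
    (hσ : σ * σ = 1) (h1 : σ ≠ 1) {G : Type} [Group G] {L : Subgroup G} (e : L ≃* PU n σ) :
    Cmp2 e (GU n σ) ⊥ := by
  intro x hx hxx
  let c : MulAut L := L.normalizerMonoidHom ⟨x, hx⟩
  have hc : ∀ l : L, (c l : G) = x * l * x⁻¹ := fun l => rfl
  obtain ⟨φ, hφ, hv⟩ := au_equiv (e.symm.trans (c.trans e))
  have hv' : ∀ l : L, φ (e l) = e (c l) := fun l => by
    rw [hv]
    simp
  obtain ⟨_, ⟨Y, hY, rfl⟩, τ, h⟩ := aut_PSU h2 hq hn h3 hσ h1 hφ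
  refine ⟨Y, hY, τ, ?_, 1, one_mem _, fun l l' hl g hg => ?_⟩
  · obtain ⟨z, hZ⟩ : ∃ z : ProjGenLinGroup (Fin n) K, z = e ⟨x * x, hxx⟩ := ⟨_, rfl⟩
    refine fix_U h2 hn h3 hσ
      (y := z⁻¹ * (ProjGenLinGroup.mk Y * act n K (τ, 1) (ProjGenLinGroup.mk Y))) fun a ha => ?_
    obtain ⟨l, hl⟩ := e.surjective ⟨a, ha⟩
    have e1 : c (c l) = ⟨x * x, hxx⟩ * l * (⟨x * x, hxx⟩ : L)⁻¹ := Subtype.ext (by
      rw [hc, hc]
      show _ = x * x * l * (x * x)⁻¹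
      group)
    have e2 : φ (φ (e l)) = z * e l * z⁻¹ := by
      rw [hv', hv', e1, map_mul, map_mul, map_inv, hZ]
      rfl
    rw [hl] at e2
    have e3 : φ (φ a) = z * a * z⁻¹ := e2
    rw [h _ (hφ.mem _ ha), h _ ha] at e3
    have e4 : ((τ * τ, 1) : RingAut K × ℤˣ) = (τ, 1) * (τ, 1) := Prod.ext rfl (mul_one _).symm
    have e5 : a = z⁻¹ * (z * a * z⁻¹) * z := by group
    rw [e4, map_mul, MulAut.mul_apply]
    conv_rhs => rw [e5, ← e3]
    simp only [map_mul, map_inv]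
    group
  · have e1 : l' = c l := Subtype.ext (hl.trans (hc l).symm)
    rw [e1, ← hv', h _ (e l).2, hg, act_mk, map_mul, map_mul, map_inv]

theorem sup_QMain {G : Type} [Group G] [Finite G] (L : Subgroup G) [L.Normal]
    (hsq : ∀ x : G, x * x ∈ L) (P : Sylow 2 G) : L ⊔ P = ⊤ := by
  have : Fact (Nat.Prime 2) := ⟨Nat.prime_two⟩
  have h1 : IsPGroup 2 (G ⧸ L) := fun q => by
    obtain ⟨x, rfl⟩ := QuotientGroup.mk_surjective q
    exact ⟨1, by rw [pow_one, ← QuotientGroup.mk_pow, QuotientGroup.eq_one_iff, sq]; exact hsq x⟩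
  obtain ⟨k, hk⟩ := IsPGroup.iff_card.1 h1
  have h2 : (L ⊔ P).index ∣ 2 ^ k := hk ▸ Subgroup.index_dvd_of_le le_sup_left
  have h3 : (L ⊔ P).index ∣ (P : Subgroup G).index := Subgroup.index_dvd_of_le le_sup_right
  obtain ⟨i, -, hi⟩ := (Nat.dvd_prime_pow Nat.prime_two).1 h2
  rw [← Subgroup.index_eq_one, hi]
  rcases i with _ | i
  · rfl
  · exact absurd ((hi ▸ dvd_pow_self 2 i.succ_ne_zero).trans h3) P.not_dvd_index

theorem qd_core {G : Type} [Group G] [Finite G] {L : Subgroup G} [hN : L.Normal]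
    (hC : Subgroup.centralizer (L : Set G) = ⊥) (hsq : ∀ x : G, x * x ∈ L)
    {L' : Subgroup (ProjGenLinGroup (Fin n) K)}
    {Y : Subgroup (GL (Fin n) K)} {E : Subgroup ℤˣ} (hLY : L' ≤ Pr Y)
    (hact : ∀ q ∈ QQ K E, ∀ y ∈ Pr Y, act n K q y ∈ Pr Y)
    (hc : ∀ x : MM n K, x.right ∈ QQ K E →
      (∀ l ∈ L'.map (inl : _ →* MM n K), x * l = l * x) → x = 1)
    (hpq : ∀ A : Subgroup (MM n K), (∀ x ∈ A, x.left ∈ Pr Y ∧ x.right ∈ QQ K E) → IsPGroup 2 A →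
      ∃ H : Subgroup (MM n K), Nonempty ((L'.map inl ⊔ A : Subgroup (MM n K)) ≃* H) ∧ PQ H)
    {e : L ≃* L'} (he : Cmp2 e Y E) : ∃ r, QD 2 G r := by
  have : Fact (Nat.Prime 2) := ⟨Nat.prime_two⟩
  let e₂ : L ≃* L'.map (inl : _ →* MM n K) := e.trans (L'.equivMapOfInjective inl inl_injective)
  have hv : ∀ l : L, (e₂ l : MM n K) = inl (e l : ProjGenLinGroup (Fin n) K) := fun l => rfl
  have hn : ∀ x : G, x ∈ Subgroup.normalizer (L : Set G) := fun x => by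
    rw [Subgroup.normalizer_eq_top]
    trivial
  have hx : ∀ x : G, ∃ y, Act_DTrans e₂ (NN (Pr Y) (QQ K E) hact) x y := fun x => by
    obtain ⟨y, hy, σ, hσ, ε, hε, h⟩ := he x (hn x) (hsq x)
    refine ⟨inl (ProjGenLinGroup.mk y) * inr (σ, ε), ⟨?_, ?_⟩, fun l l' hl => ?_⟩
    · show (inl (ProjGenLinGroup.mk y) * inr (σ, ε) : MM n K).left ∈ Pr Y
      simp only [mul_left, left_inl, right_inl, left_inr, map_one, mul_one]
      exact Subgroup.mem_map_of_mem _ hy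
    · show (inl (ProjGenLinGroup.mk y) * inr (σ, ε) : MM n K).right ∈ QQ K E
      simp only [mul_right, right_inl, right_inr, one_mul]
      exact ⟨hσ, hε⟩
    · obtain ⟨g, hg⟩ := ProjGenLinGroup.mk_surjective (e l : ProjGenLinGroup (Fin n) K)
      rw [hv, hv, h l l' hl g hg.symm, ← hg, map_mul, map_mul, map_mul, map_mul, map_inv, map_inv,
        ← act_mk (σ, ε) g, inl_aut, map_inv]
      group
  choose f₀ hf using hx
  have hc' : ∀ y ∈ NN (Pr Y) (QQ K E) hact, (∀ l ∈ L'.map (inl : _ →* MM n K), y * l = l * y) →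
      y = 1 := fun y hy => hc y hy.2
  have hN' : L'.map (inl : _ →* MM n K) ≤ NN (Pr Y) (QQ K E) hact := by
    rintro _ ⟨y, hy, rfl⟩
    exact ⟨hLY hy, one_mem _⟩
  let f : G →* MM n K := MonoidHom.mk' f₀ fun a b =>
    uniq_DTrans hc' (hn _) (hf (a * b)) (mul_DTrans (hn b) (hf a) (hf b))
  have hfl : ∀ l : L, f l = e₂ l := fun l => uniq_DTrans hc' (hn _) (hf l) (self_DTrans hN' l)
  have hinj : Function.Injective f := by
    refine (injective_iff_map_eq_one f).2 fun x hx => ?_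
    rw [← Subgroup.mem_bot, ← hC, Subgroup.mem_centralizer_iff]
    intro l hl
    have h1 := (hf x).2 ⟨l, hl⟩ ⟨x * l * x⁻¹, hN.conj_mem l hl x⟩ rfl
    rw [show f₀ x = 1 from hx, one_mul, inv_one, mul_one] at h1
    have h2 : x * l * x⁻¹ = l := congrArg Subtype.val (e₂.injective (Subtype.ext h1))
    rw [mul_inv_eq_iff_eq_mul] at h2
    exact h2.symm
  obtain ⟨P⟩ : Nonempty (Sylow 2 G) := inferInstance
  obtain ⟨H, ⟨e₃⟩, hH⟩ := hpq ((P : Subgroup G).map f) (by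
    rintro _ ⟨x, -, rfl⟩
    exact (hf x).1) (P.isPGroup'.map f)
  have hr : f.range = L'.map inl ⊔ (P : Subgroup G).map f := by
    rw [MonoidHom.range_eq_map, ← sup_QMain L hsq P, Subgroup.map_sup]
    congr 1
    refine le_antisymm ?_ fun y hy => ?_
    · rintro _ ⟨l, hl, rfl⟩
      rw [show f l = _ from hfl ⟨l, hl⟩]
      exact Subtype.mem _
    · obtain ⟨l, hl⟩ := e₂.surjective ⟨y, hy⟩
      exact ⟨l, l.2, by rw [hfl, hl]⟩
  exact PQ.qd (((MonoidHom.ofInjective hinj).trans (MulEquiv.subgroupCongr hr)).trans e₃) hH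

theorem qd_A {G : Type} [Group G] [Finite G] (hn : Odd n) (h3 : 3 ≤ n) (h2 : (2 : K) ≠ 0)
    {L : Subgroup G} [L.Normal] (hC : Subgroup.centralizer (L : Set G) = ⊥)
    (hsq : ∀ x : G, x * x ∈ L) (hq : 100 * Nat.gcd (2 * n) (Nat.card K - 1) ≤ Nat.card K)
    (hq' : IsSquare (Nat.card K) → (100 * Nat.gcd (2 * n) (Nat.card K - 1)) ^ 2 ≤ Nat.card K)
    (e : L ≃* ProjectiveSpecialLinearGroup (Fin n) K) : ∃ r, QD 2 G r := by
  have hg : 0 < Nat.gcd (2 * n) (Nat.card K - 1) := Nat.gcd_pos_of_pos_left _ (by omega)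
  refine qd_core hC hsq (Subgroup.map_mono le_top) (fun p _ y _ => ?_)
    (fun x hx => cent_A h2 (by omega) hn h3 hx.1)
    (fun A hA hsq => pq_A h2 hn h3 hq hq' A (fun x hx => (hA x hx).2) hsq)
    (cmp2_PSL h2 hn h3 ((e.trans (MonoidHom.ofInjective
      ProjectiveSpecialLinearGroup.toPGL_injective)).trans (MulEquiv.subgroupCongr range_PSL)))
  obtain ⟨g, hg⟩ := ProjGenLinGroup.mk_surjective (act n K p y)
  exact ⟨g, trivial, hg⟩

theorem qd_U {G : Type} [Group G] [Finite G] (hn : Odd n) (h3 : 3 ≤ n) (h2 : (2 : K) ≠ 0)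
    {L : Subgroup G} [L.Normal] (hC : Subgroup.centralizer (L : Set G) = ⊥)
    (hsq : ∀ x : G, x * x ∈ L) {q : ℕ}
    (hK : Nat.card K = q ^ 2) (hq : 100 * Nat.gcd (2 * n) (q + 1) ≤ q) (hσ : σ * σ = 1) (h1 : σ ≠ 1)
    (e : L ≃* PU n σ) : ∃ r, QD 2 G r := by
  have hg : 0 < Nat.gcd (2 * n) (q + 1) := Nat.gcd_pos_of_pos_left _ (by omega)
  have h49 : 49 ≤ Nat.card K := by
    rw [hK]
    exact le_trans (by norm_num) (Nat.pow_le_pow_left (show 7 ≤ q by omega) 2)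
  refine qd_core hC hsq (Subgroup.map_mono inf_le_left) (fun p _ y hy => ?_)
    (fun x hx => cent_U h2 h49 hn h3 hσ h1 hx.1 (Subgroup.mem_bot.1 hx.2))
    (fun A hA hsq => pq_U h2 hn h3 hK hq hσ h1 A hA (fun x hx => ⟨(hA x hx).2.1, trivial⟩) hsq)
    (cmp2_PSU h2 h49 hn h3 hσ h1 e)
  obtain ⟨g, hg, rfl⟩ := hy
  rw [act_mk]
  exact Subgroup.mem_map_of_mem _ (algu_TFin _ _ _ hg)

end Vale.Agent.P240
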