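import Vale.Agent.P240.Q.Main
import Vale.Agent.P240.W.Main

/-! P240 Q/Orth: the Quillen dimension property for elementary 2-extensions of PH. -/

namespace Vale.Agent.P240

open Matrix SemidirectProduct

variable {n : ℕ} {K : Type} [Field K] [Finite K]

theorem cmp2_PH (h2 : (2 : K) ≠ 0) (hq : 49 ≤ Nat.card K) (hn : Odd n) (h5 : 5 ≤ n)
    {G : Type} [Group G] {L : Subgroup G} (e : L ≃* PH n K) :
    Cmp2 e (OG n K) ⊥ := by
  intro x hx hxx
  let c : MulAut L := L.normalizerMonoidHom ⟨x, hx⟩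
  have hc : ∀ l : L, (c l : G) = x * l * x⁻¹ := fun l => rfl
  obtain ⟨φ, hφ, hv⟩ := au_equiv (e.symm.trans (c.trans e))
  have hv' : ∀ l : L, φ (e l) = e (c l) := fun l => by
    rw [hv]
    simp
  obtain ⟨_, ⟨Y, hY, rfl⟩, τ, h⟩ := aut_PH h2 hq hn h5 hφ
  refine ⟨Y, hY, τ, ?_, 1, one_mem _, fun l l' hl g hg => ?_⟩
  · obtain ⟨z, hZ⟩ : ∃ z : ProjGenLinGroup (Fin n) K, z = e ⟨x * x, hxx⟩ := ⟨_, rfl⟩
    refine fix_O h2 hn h5
      (y := z⁻¹ * (ProjGenLinGroup.mk Y * act n K (τ, 1) (ProjGenLinGroup.mk Y))) fun a ha => ?_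
    obtain ⟨l, hl⟩ := e.surjective ⟨a, ha⟩
    have e1 : c (c l) = ⟨x * x, hxx⟩ * l * (⟨x * x, hxx⟩ : L)⁻¹ := Subtype.ext (by
      rw [hc, hc]
      show _ = x * x * l * (x * x)⁻¹
      group)
    have e2 : φ (φ (e l)) = z * e l * z⁻¹ := by
      rw [hv', hv', e1, map_mul, map_mul, map_inv, hZ]
      rfl
    rw [hl] at e2
    have e3 : φ (φ a) = z * a * z⁻¹ := e2
    rw [h _ (hφ.mem _ ha), h _ ha] at e3
    have e4 : ((τ * τ, 1) : RingAut K × ℤˣ) = (τ, 1) * (τ, 1) := Prod.ext rfl (mul_one _).symm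
    have e5 : a = z⁻¹ * (z * a * z⁻¹) * z := by group
    rw [e4, map_mul, MulAut.mul_apply]
    conv_rhs => rw [e5, ← e3]
    simp only [map_mul, map_inv]
    group
  · have e1 : l' = c l := Subtype.ext (hl.trans (hc l).symm)
    rw [e1, ← hv', h _ (e l).2, hg, act_mk, map_mul, map_mul, map_inv]

omit [Finite K] in
theorem inl_QOrth {H : Subgroup (MM n K)} {x : MM n K} (hx : x ∈ H) (h : x.right = 1) :
    x ∈ (H.comap (inl : _ →* MM n K)).map (inl : _ →* MM n K) := by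
  have e1 : (inl x.left : MM n K) = x := by
    conv_rhs => rw [← inl_left_mul_inr_right x, h, map_one, mul_one]
  exact ⟨x.left, by rw [SetLike.mem_coe, Subgroup.mem_comap, e1]; exact hx, e1⟩

theorem pq_B (h2 : (2 : K) ≠ 0) (hn : Odd n) (h3 : 3 ≤ n) (hq : 49 ≤ Nat.card K)
    (hq' : IsSquare (Nat.card K) → 100 ^ 2 ≤ Nat.card K) (H : Subgroup (MM n K))
    (hL : (PH n K).map inl ≤ H) (hH : ∀ x ∈ H, x.left ∈ PO n K ∧ x.right ∈ QQ K ⊥) :
    ∃ H' : Subgroup (MM n K), Nonempty (H ≃* H') ∧ PQ H' := by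
  by_cases h0 : ∀ x ∈ H, x * x = 1 → x.right = 1
  · obtain ⟨m, Γ, iΓ, τ, c, γ₀, hS, hτ, hr⟩ := pq_og0 h2 hq hn h3 (L := H.comap inl)
      fun y hy => hL ⟨y, hy, rfl⟩
    refine ⟨H, ⟨MulEquiv.refl _⟩, m, Γ, iΓ, τ, c, γ₀, hS, fun γ j => ?_, fun E hE h4 h5 =>
      hr E (fun x hx => Subgroup.mem_sup_left
        (inl_QOrth (hE hx) (h0 x (hE hx) (by rw [← sq]; exact h5 x hx)))) h4 h5⟩
    refine (sup_le (Subgroup.map_comap_le _ _) ?_ : _ ≤ H) (hτ γ j)
    simp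
  · obtain ⟨x₀, h4⟩ := not_forall.1 h0
    obtain ⟨hx, h5⟩ := Classical.not_imp.1 h4
    obtain ⟨hxx, h6⟩ := Classical.not_imp.1 h5
    have hz : Subgroup.zpowers x₀ ≤ H := (Subgroup.zpowers_le).2 hx
    obtain ⟨g, hg, hgA⟩ := conj_B h2 hn h3 (A := Subgroup.zpowers x₀)
      (by
        rintro _ ⟨a, rfl⟩ _ ⟨b, rfl⟩
        exact zpow_mul_comm x₀ a b)
      (by
        rintro _ ⟨a, rfl⟩
        show x₀ ^ a * x₀ ^ a = 1
        rw [← (Commute.refl x₀).mul_zpow, hxx, _root_.one_zpow])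
      (fun x hx => ⟨(hH x (hz hx)).1, Subgroup.mem_bot.1 (hH x (hz hx)).2.2⟩)
      (Subgroup.mem_zpowers x₀) h6
    have q2 : x₀.right.2 = 1 := Subgroup.mem_bot.1 (hH x₀ hx).2.2
    have q1 : x₀.right.1 ≠ 1 := fun h => h6 (Prod.ext h q2)
    have hβ : Ind ![x₀.right] := by
      refine ⟨fun i => ?_, fun i j => ?_, fun i => ?_⟩
      · rw [Subsingleton.elim i 0]
        exact Prod.ext (hH x₀ hx).2.1 (Int.units_mul_self _)
      · rw [Subsingleton.elim i j]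
      · have e : {i' : Fin 1 | i' ≠ i} = ∅ := Set.eq_empty_of_forall_notMem fun j hj =>
          hj (Subsingleton.elim _ _)
        rw [e, Set.image_empty, Subgroup.closure_empty, Subsingleton.elim i 0]
        exact h6
    obtain ⟨C, hC⟩ : ∃ C, C = H.map (MulAut.conj (inl g : MM n K)).toMonoidHom := ⟨_, rfl⟩
    have hPH : PH n K ≤ C.comap inl := fun l hl => by
      rw [hC]
      refine ⟨inl (g⁻¹ * l * g⁻¹⁻¹), hL ⟨_, conj_DTwo (inv_mem hg) hl, rfl⟩, ?_⟩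
      show inl g * inl _ * (inl g)⁻¹ = _
      rw [← map_inv, ← map_mul, ← map_mul]
      congr 1
      group
    have hy : inl g * x₀ * (inl g)⁻¹ ∈ C := hC ▸ ⟨x₀, hx, rfl⟩
    have hr : (inr x₀.right : MM n K) ∈ C := by
      have h7 := C.mul_mem (C.inv_mem (hPH (hgA x₀ (Subgroup.mem_zpowers x₀)))) hy
      have h8 := inl_left_mul_inr_right (inl g * x₀ * (inl g)⁻¹)
      rw [right_conj_TConj] at h8
      rwa [← eq_inv_mul_iff_mul_eq.2 h8] at h7
    have hE : C = (C.comap inl).map inl ⊔ (Subgroup.closure (Set.range ![x₀.right])).map inr := by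
      refine le_antisymm (fun z hz => ?_) (sup_le (Subgroup.map_comap_le _ _) ?_)
      · have h7 : z.right ∈ QQ K ⊥ := by
          rw [hC] at hz
          obtain ⟨x, hx', rfl⟩ := hz
          show (inl g * x * (inl g)⁻¹).right ∈ _
          rw [right_conj_TConj]
          exact (hH x hx').2
        by_cases h8 : z.right = 1
        · exact Subgroup.mem_sup_left (inl_QOrth hz h8)
        · have h9 : z.right = x₀.right := Prod.ext (inv_unique h7.1
            (fun h => h8 (Prod.ext h (Subgroup.mem_bot.1 h7.2))) (hH x₀ hx).2.1 q1)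
            ((Subgroup.mem_bot.1 h7.2).trans q2.symm)
          rw [← inv_mul_cancel_right z (inr x₀.right)]
          refine Subgroup.mul_mem_sup (inl_QOrth (C.mul_mem hz (C.inv_mem hr)) ?_)
            (Subgroup.mem_map_of_mem _ (Subgroup.subset_closure ⟨0, rfl⟩))
          rw [← map_inv, mul_right, right_inr, h9, mul_inv_cancel]
      · rw [Subgroup.map_le_iff_le_comap, Subgroup.closure_le]
        rintro _ ⟨i, rfl⟩
        rw [Subsingleton.elim i 0]
        exact hr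
    exact ⟨_, ⟨((MulAut.conj (inl g : MM n K)).subgroupMap H).trans
      (MulEquiv.subgroupCongr (hC.symm.trans hE))⟩,
      pq_og1 h2 (hq' (sq_TFin (hH x₀ hx).2.1 q1)) hn h3 hPH hβ q1⟩

theorem qd_O {G : Type} [Group G] [Finite G] (hn : Odd n) (h5 : 5 ≤ n) (h2 : (2 : K) ≠ 0)
    {L : Subgroup G} [L.Normal] (hC : Subgroup.centralizer (L : Set G) = ⊥)
    (hsq : ∀ x : G, x * x ∈ L) (hq : 49 ≤ Nat.card K)
    (hq' : IsSquare (Nat.card K) → 100 ^ 2 ≤ Nat.card K) (e : L ≃* PH n K) : ∃ r, QD 2 G r := by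
  refine qd_core hC hsq PH_le (fun p _ => act_PO p)
    (fun _ hx => cent_B h2 hq hn (by omega) hx.1 (Subgroup.mem_bot.1 hx.2))
    (fun A hA _ => pq_B h2 hn (by omega) hq hq' _ le_sup_left fun x hx => ?_)
    (cmp2_PH h2 hq hn h5 e)
  refine (sup_le ?_ hA : _ ≤ NN (PO n K) (QQ K ⊥) fun p _ => act_PO p) hx
  rintro _ ⟨y, hy, rfl⟩
  exact ⟨PH_le hy, one_mem _⟩

end Vale.Agent.P240
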